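import Vale.Agent.P207.N4.Dim
import Vale.Agent.P207.N7.H547.AffLemD
import Vale.Agent.P207.N7.H478.HolInf
import Vale.Agent.P207.N7.H376.PicLoc
import Vale.Agent.P207.H242.Dich

/-!
# P207, line N7, row PIC-DICH

`P.Dich` from `P.T2d`, `P.T2a`, `P.T2h`, `P.T3`, `P.SInv`, `P.SB` (over 376's `Pic.loc`).
-/

set_option linter.all false

open Set Filter Topology Metric Module
open scoped ContDiff RealInnerProductSpace

noncomputable section

namespace Vale.Agent.P207.N4.Y.H242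

open Vale.Agent.P207.N3 Vale.Agent.P207.H242.Dich

variable [Dim]

/-- bilinear forms on the affine space -/
abbrev BF2 : Type := E2 →L[ℝ] E2 →L[ℝ] ℝ

/-- the operator `s` represents the form `f` -/
def Rep (f : BF2) (s : E2 →L[ℝ] E2) : Prop := ∀ u w, f u w = ⟪s u, w⟫

/-- the form of an operator -/
def fo (s : E2 →L[ℝ] E2) : BF2 := (innerSL ℝ).comp s

theorem rep_fo (s : E2 →L[ℝ] E2) : Rep (fo s) s := fun u w => rfl

theorem exists_rep (f : BF2) : ∃ s, Rep f s := by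
  refine ⟨LinearMap.toContinuousLinearMap
    { toFun := fun u => (InnerProductSpace.toDual ℝ E2).symm (f u)
      map_add' := fun u v => by rw [map_add, map_add]
      map_smul' := fun c u => by rw [map_smul, map_smulₛₗ]; simp }, fun u w => ?_⟩
  change f u w = ⟪(InnerProductSpace.toDual ℝ E2).symm (f u), w⟫
  rw [InnerProductSpace.toDual_symm_apply]

theorem rep_unique {f : BF2} {s s' : E2 →L[ℝ] E2} (h : Rep f s) (h' : Rep f s') : s = s' := by
  ext1 u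
  refine ext_inner_right ℝ fun w => ?_
  rw [← h u w, ← h' u w]

theorem rep_form_unique {f f' : BF2} {s : E2 →L[ℝ] E2} (h : Rep f s) (h' : Rep f' s) : f = f' := by
  refine ContinuousLinearMap.ext fun u => ContinuousLinearMap.ext fun w => ?_
  rw [h u w, h' u w]

variable {Γ X B : Type} [Group Γ] [MetricSpace X] [ProperSpace X] [MulAction Γ X]
  [IsIsometricSMul Γ X] [TopologicalSpace B] [CompactSpace B] [T2Space B] [MulAction Γ B]
  [ContinuousConstSMul Γ B]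
variable {L : Leaf Γ X B} [MeasurableSpace B] [BorelSpace B] {V : Type}
  [NormedAddCommGroup V] [NormedSpace ℝ V] [FiniteDimensional ℝ V] (P : Pic L V)

theorem pr_add (N s s' : E2 →L[ℝ] E2) : Pic.pr N (s + s') = Pic.pr N s + Pic.pr N s' := by
  have h : ((N ∘L (s + s') : E2 →L[ℝ] E2) : E2 →ₗ[ℝ] E2) =
      ((N ∘L s : E2 →L[ℝ] E2) : E2 →ₗ[ℝ] E2) + ((N ∘L s' : E2 →L[ℝ] E2) : E2 →ₗ[ℝ] E2) := by
    ext1 v
    exact map_add N (s v) (s' v)
  rw [Pic.pr, h, map_add]; rfl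

theorem pr_smul (c : ℝ) (N s : E2 →L[ℝ] E2) : Pic.pr N (c • s) = c * Pic.pr N s := by
  have h : ((N ∘L (c • s) : E2 →L[ℝ] E2) : E2 →ₗ[ℝ] E2) =
      c • ((N ∘L s : E2 →L[ℝ] E2) : E2 →ₗ[ℝ] E2) := by
    ext1 v
    exact map_smul N c (s v)
  rw [Pic.pr, h, map_smul]; rfl

theorem pr_zero (N : E2 →L[ℝ] E2) : Pic.pr N 0 = 0 := by
  have h : ((N ∘L (0 : E2 →L[ℝ] E2) : E2 →L[ℝ] E2) : E2 →ₗ[ℝ] E2) = 0 := by
    ext1 v
    exact map_zero N
  rw [Pic.pr, h, map_zero]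

/-- the S-bundle as a space of forms -/
def SF (x : X) : Submodule ℝ (E2 →L[ℝ] E2 →L[ℝ] ℝ) where
  carrier := {f | ∃ s ∈ P.Sm x, Rep f s}
  add_mem' := by
    rintro f g ⟨s, hs, h1⟩ ⟨s', hs', h2⟩
    refine ⟨s + s', ?_, fun u w => ?_⟩
    · have h3 : ContDiffOn ℝ ∞ (fun q => Pic.pr (P.Na x q) s + Pic.pr (P.Na x q) s') (ball 0 1) :=
        ContDiffOn.add hs hs'
      exact h3.congr fun q _ => pr_add _ _ _
    · change f u w + g u w = ⟪s u + s' u, w⟫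
      rw [h1, h2, inner_add_left]
  zero_mem' := by
    refine ⟨0, ?_, fun u w => ?_⟩
    · have h3 : ContDiffOn ℝ ∞ (fun _ : E2 => (0 : ℝ)) (ball 0 1) := contDiffOn_const
      exact h3.congr fun q _ => pr_zero _
    · change (0 : ℝ) = ⟪(0 : E2), w⟫
      rw [inner_zero_left]
  smul_mem' := by
    rintro c f ⟨s, hs, h1⟩
    refine ⟨c • s, ?_, fun u w => ?_⟩
    · have h3 : ContDiffOn ℝ ∞ (fun q => c * Pic.pr (P.Na x q) s) (ball 0 1) :=
        ContDiffOn.mul contDiffOn_const hs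
      exact h3.congr fun q _ => pr_smul _ _ _
    · change c * f u w = ⟪c • s u, w⟫
      rw [h1, real_inner_smul_left]

theorem mem_SF {x : X} {f : BF2} : f ∈ SF P x ↔ ∃ s ∈ P.Sm x, Rep f s := Iff.rfl

theorem mem_SF_of_rep {x : X} {f : BF2} {s : E2 →L[ℝ] E2} (h : Rep f s) :
    f ∈ SF P x ↔ s ∈ P.Sm x := by
  constructor
  · rintro ⟨s', hs', h'⟩
    rwa [rep_unique h h']
  · exact fun hs => ⟨s, hs, h⟩

/-- pull back by an invertible map, on operators -/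
theorem push_pull (A : E2 ≃L[ℝ] E2) (s : E2 →L[ℝ] E2) :
    Pic.push A (ContinuousLinearMap.adjoint (A : E2 →L[ℝ] E2) ∘L s ∘L (A : E2 →L[ℝ] E2)) = s := by
  ext1 v
  refine ext_inner_right ℝ fun w => ?_
  change ⟪ContinuousLinearMap.adjoint (A.symm : E2 →L[ℝ] E2)
    (ContinuousLinearMap.adjoint (A : E2 →L[ℝ] E2) (s (A (A.symm v)))), w⟫ = _
  rw [ContinuousLinearMap.adjoint_inner_left, ContinuousLinearMap.adjoint_inner_left]
  change ⟪s (A (A.symm v)), A (A.symm w)⟫ = _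
  rw [A.apply_symm_apply, A.apply_symm_apply]

theorem inner_push (A : E2 ≃L[ℝ] E2) (s : E2 →L[ℝ] E2) (u w : E2) :
    ⟪Pic.push A s (A u), A w⟫ = ⟪s u, w⟫ := by
  change ⟪ContinuousLinearMap.adjoint (A.symm : E2 →L[ℝ] E2) (s (A.symm (A u))), A w⟫ = _
  rw [ContinuousLinearMap.adjoint_inner_left]
  change ⟪s (A.symm (A u)), A.symm (A w)⟫ = _
  rw [A.symm_apply_apply, A.symm_apply_apply]

/-- if `push A` maps `Sm x` onto `Sm y` then pull back by `A` maps `SF y` onto `SF x` -/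
theorem pb_of_push {x y : X} {A : E2 ≃L[ℝ] E2} (h : ∀ s, s ∈ P.Sm x ↔ Pic.push A s ∈ P.Sm y) :
    PB (SF P x) (SF P y) (A : E2 →L[ℝ] E2) := by
  constructor
  · intro f' hf'
    obtain ⟨s', hs', h1⟩ := hf'
    refine ⟨fo (ContinuousLinearMap.adjoint (A : E2 →L[ℝ] E2) ∘L s' ∘L (A : E2 →L[ℝ] E2)),
      ⟨_, ?_, rep_fo _⟩, fun u w => ?_⟩
    · rw [h, push_pull]; exact hs'
    · rw [h1]
      change ⟪ContinuousLinearMap.adjoint (A : E2 →L[ℝ] E2) (s' (A u)), w⟫ = ⟪s' (A u), A w⟫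
      rw [ContinuousLinearMap.adjoint_inner_left]
      rfl
  · intro f hf
    obtain ⟨s, hs, h1⟩ := hf
    refine ⟨fo (Pic.push A s), ⟨_, (h s).1 hs, rep_fo _⟩, fun u w => ?_⟩
    rw [h1, rep_fo]
    exact (inner_push A s u w).symm

/-- the stable holonomies respect the S-bundle -/
theorem pb_hh {ε₀ : ℝ} (h3 : P.T3 ε₀) (hI : P.SInv) {x : X} {ξ : B} (hξ : ξ ≠ L.ep x) {q : E2}
    (hq : P.Af.pt x q ≠ ξ) : PB (SF P x) (SF P (L.hol ξ x)) (fderiv ℝ (P.hh x ξ) q) := by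
  obtain ⟨A, hA⟩ := (h3.1 x ξ hξ).2 q hq
  rw [← hA]
  exact pb_of_push P (hI x ξ hξ q hq A hA)

/-- the global holonomy -/
theorem glo {ε₀ : ℝ} (h3 : P.T3 ε₀) (hI : P.SInv) (x : X) : Glo (SF P x) := by
  haveI : Nontrivial E2 := by
    refine ⟨⟨EuclideanSpace.single 0 1, 0, fun h => ?_⟩⟩
    have h1 := congrArg (fun v : E2 => ‖v‖) h
    simp at h1
  obtain ⟨ξ, h1, h2⟩ := P.Af.exists_third x
  have hset : {q | P.Af.pt x q ≠ ξ} = ({P.Af.ch x ξ}ᶜ : Set E2) := by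
    ext q
    exact P.pt_ne_iff h1
  have hd := (h3.1 x ξ h2).1
  rw [hset] at hd
  have hne : ∀ q ≠ P.Af.ch x ξ, P.Af.pt x q ≠ ξ := fun q hq => (P.pt_ne_iff h1).2 hq
  refine ⟨SF P (L.hol ξ x), P.hh x ξ, fderiv ℝ (P.hh x ξ), P.Af.ch x ξ,
    P.Af.ch (L.hol ξ x) (L.em x), ?_, ?_, ?_, ?_, ?_, ?_⟩
  · intro q hq
    exact ((hd.contDiffAt (isOpen_compl_singleton.mem_nhds hq)).differentiableAt one_ne_zero).hasFDerivAt
  · exact hd.continuousOn_fderiv_of_isOpen isOpen_compl_singleton le_rfl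
  · intro q hq
    obtain ⟨A, hA⟩ := (h3.1 x ξ h2).2 q (hne q hq)
    rw [← hA]
    exact A.injective
  · intro q hq
    exact P.hh_ne h1 h2 (hne q hq)
  · exact P.hh_tendsto h1 h2
  · intro q hq
    exact pb_hh P h3 hI h2 (hne q hq)

theorem two_le_finrank : 2 ≤ finrank ℝ E2 := by
  rw [finrank_euclideanSpace_fin]; exact Dim.two_le

/-- IRR for the S-bundle -/
theorem irr {ε₀ : ℝ} (h3 : P.T3 ε₀) (hI : P.SInv) (x : X) (F : Submodule ℝ E2)
    (hF : ∀ Z ∈ Vale.Agent.P207.H61.J (SF P x), ∀ u ∈ F, Z u ∈ F) : F = ⊥ ∨ F = ⊤ :=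
  irr_of_glo two_le_finrank (glo P h3 hI x) F hF

/-! ### the derivatives of the holonomies, normalised at `0`, lie in the stabiliser -/

theorem stab_hh {ε₀ : ℝ} (h3 : P.T3 ε₀) (hI : P.SInv) (x : X) (ξ : B) (hξ : ξ ≠ L.ep x)
    (κ' : E2 →L[ℝ] E2) (hκ : κ' * fderiv ℝ (P.hh x ξ) 0 = 1) (q : E2) (hq : P.Af.pt x q ≠ ξ) :
    Vale.Agent.P207.H61.Stab (SF P x) (κ' * fderiv ℝ (P.hh x ξ) q) := by
  have hq0 : P.Af.pt x 0 ≠ ξ := by rw [P.Af.pt_zero]; exact hξ.symm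
  obtain ⟨A, hA⟩ := (h3.1 x ξ hξ).2 0 hq0
  refine stab_of_pb (pb_hh P h3 hI hξ hq0) (pb_hh P h3 hI hξ hq) ?_
  rw [← hA] at hκ ⊢
  have h1 : ∀ v, κ' (A v) = v := fun v => DFunLike.congr_fun hκ v
  ext1 v
  change A (κ' v) = v
  have h2 := h1 (A.symm v)
  rw [A.apply_symm_apply] at h2
  rw [h2, A.apply_symm_apply]

/-! ### traces -/

theorem pr_sum (N s : E2 →L[ℝ] E2) : Pic.pr N s =
    ∑ i, ⟪EuclideanSpace.basisFun (Fin Dim.m) ℝ i, N (s (EuclideanSpace.basisFun (Fin Dim.m) ℝ i))⟫ := by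
  rw [Pic.pr, LinearMap.trace_eq_sum_inner _ (EuclideanSpace.basisFun (Fin Dim.m) ℝ)]
  rfl

theorem pr_smooth {U : Set E2} {N : E2 → E2 →L[ℝ] E2} (h : ∀ α, ContDiffOn ℝ ∞ (fun q => N q α) U)
    (s : E2 →L[ℝ] E2) : ContDiffOn ℝ ∞ (fun q => Pic.pr (N q) s) U := by
  have h1 : (fun q => Pic.pr (N q) s) = fun q => ∑ i, ⟪EuclideanSpace.basisFun (Fin Dim.m) ℝ i,
      N q (s (EuclideanSpace.basisFun (Fin Dim.m) ℝ i))⟫ := funext fun q => pr_sum _ _
  rw [h1]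
  exact ContDiffOn.sum fun i _ => contDiffOn_const.inner ℝ (h _)

theorem pr_anti {N s : E2 →L[ℝ] E2} (hN : ∀ v w, ⟪N v, w⟫ = ⟪v, N w⟫)
    (hs : ∀ v w, ⟪s v, w⟫ = - ⟪v, s w⟫) : Pic.pr N s = 0 := by
  set b := EuclideanSpace.basisFun (Fin Dim.m) ℝ with hb
  have h1 : ∀ i, ⟪b i, N (s (b i))⟫ = ∑ j, ⟪N (b i), b j⟫ * ⟪b j, s (b i)⟫ := by
    intro i
    rw [← hN, b.sum_inner_mul_inner]
  have h2 : Pic.pr N s = ∑ i, ∑ j, ⟪N (b i), b j⟫ * ⟪b j, s (b i)⟫ := by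
    rw [pr_sum]
    exact Finset.sum_congr rfl fun i _ => h1 i
  have h3 : (∑ i, ∑ j, ⟪N (b i), b j⟫ * ⟪b j, s (b i)⟫) =
      - ∑ i, ∑ j, ⟪N (b i), b j⟫ * ⟪b j, s (b i)⟫ := by
    conv_lhs => rw [Finset.sum_comm]
    rw [← Finset.sum_neg_distrib]
    refine Finset.sum_congr rfl fun i _ => ?_
    rw [← Finset.sum_neg_distrib]
    refine Finset.sum_congr rfl fun j _ => ?_
    have e1 : ⟪N (b j), b i⟫ = ⟪N (b i), b j⟫ := by rw [hN, real_inner_comm]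
    have e2 : ⟪b i, s (b j)⟫ = -⟪b j, s (b i)⟫ := by
      have h4 := hs (b i) (b j)
      rw [real_inner_comm] at h4
      linarith
    rw [e1, e2]
    ring
  rw [h2]
  linarith

theorem Na_symm (x : X) (q : E2) (v w : E2) : ⟪P.Na x q v, w⟫ = ⟪v, P.Na x q w⟫ := by
  change ⟪fderiv ℝ (fun u => P.Af.ch x (L.e x u)) (P.Af.dsc x q) (P.S.T.N x (P.Af.dsc x q)
    (ContinuousLinearMap.adjoint (fderiv ℝ (fun u => P.Af.ch x (L.e x u)) (P.Af.dsc x q)) v)), w⟫ =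
    ⟪v, fderiv ℝ (fun u => P.Af.ch x (L.e x u)) (P.Af.dsc x q) (P.S.T.N x (P.Af.dsc x q)
    (ContinuousLinearMap.adjoint (fderiv ℝ (fun u => P.Af.ch x (L.e x u)) (P.Af.dsc x q)) w))⟫
  rw [← ContinuousLinearMap.adjoint_inner_right, P.S.T.N_symm, ContinuousLinearMap.adjoint_inner_left]

/-- antisymmetric operators are in the S-bundle -/
theorem anti_mem (x : X) {s : E2 →L[ℝ] E2} (hs : ∀ v w, ⟪s v, w⟫ = - ⟪v, s w⟫) : s ∈ P.Sm x := by
  have h1 : ContDiffOn ℝ ∞ (fun _ : E2 => (0 : ℝ)) (ball 0 1) := contDiffOn_const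
  exact h1.congr fun q _ => pr_anti (Na_symm P x q) hs

/-- smoothness of `N0` gives everything -/
theorem all_mem_of_N0 (hSB : P.SB) {x : X}
    (h : ∀ α, ContDiffOn ℝ ∞ (fun q => P.N0 x q α) (ball 0 (1 / 2))) (s : E2 →L[ℝ] E2) :
    s ∈ P.Sm x := by
  refine hSB.2.2 x s (ball 0 (1 / 2)) isOpen_ball (ball_subset_ball (by norm_num))
    ⟨0, mem_ball_self (by norm_num)⟩ ?_
  obtain ⟨h1, -, h2⟩ := P.link_one
  have h3 : ∀ α : E2, ContDiffOn ℝ ∞ (fun q => P.Na x q α) (ball 0 (1 / 2)) := by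
    intro α
    have h4 : ContDiffOn ℝ ∞ (fun q => P.Bu.c₀ • P.N0 x q α + P.Rl x q α) (ball 0 (1 / 2)) := by
      refine ContDiffOn.add ((h α).const_smul _) ?_
      exact ((h1 x).mono (ball_subset_ball (by norm_num))).clm_apply contDiffOn_const
    refine h4.congr fun q hq => ?_
    rw [h2 x q (ball_subset_ball (by norm_num) hq)]
    rfl
  exact pr_smooth h3 s

/-! ### the dichotomy at one frame -/

theorem dich_frame {ε₀ : ℝ} (hε : 0 < ε₀) (h2d : P.T2d ε₀) (h2a : P.T2a ε₀) (h2h : P.T2h ε₀)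
    (h3 : P.T3 ε₀) (hI : P.SInv) (hSB : P.SB) (x : X) : (∀ s, s ∈ P.Sm x) ∨
      ∀ s ∈ P.Sm x, (∀ v w, ⟪s v, w⟫ = ⟪v, s w⟫) → s = 0 := by
  have hN : ContinuousOn (P.N0 x) (ball 0 1) :=
    P.N0_cont.comp (f := fun q : E2 => ((x, q) : X × E2)) (by fun_prop) fun q hq =>
      P.Af.closedBall_dT x (ball_subset_closedBall (ball_subset_ball (by norm_num) hq))
  rcases P.loc hε h2d h2a h2h h3 x hN (SF P x) (stab_hh P h3 hI x) with h5 | ⟨ζ, w, hζ, hw, hm⟩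
  · exact Or.inl fun s => all_mem_of_N0 P hSB h5 s
  · have hirr : ∀ F : Submodule ℝ E2, (∀ Z ∈ Vale.Agent.P207.H61.J (SF P x ⊓ SymB E2), ∀ u ∈ F,
        Z u ∈ F) → F = ⊥ ∨ F = ⊤ :=
      fun F hF => irr P h3 hI x F fun Z hZ => hF Z (J_le_J_inf _ hZ)
    rcases alg (S := SF P x ⊓ SymB E2) inf_le_right hirr hζ hw (J_le_J_inf _ hm) with h6 | h6
    · right
      intro s hs hsym
      have h7 : fo s ∈ SF P x ⊓ SymB E2 := by
        refine ⟨⟨s, hs, rep_fo s⟩, fun u w => ?_⟩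
        rw [rep_fo, rep_fo, hsym, real_inner_comm]
      rw [h6, Submodule.mem_bot] at h7
      refine rep_unique (rep_fo s) (fun u w => ?_)
      rw [h7]
      change (0 : ℝ) = ⟪(0 : E2), w⟫
      rw [inner_zero_left]
    · left
      intro s
      -- symmetric part
      set a : E2 →L[ℝ] E2 := (1 / 2 : ℝ) • (s + ContinuousLinearMap.adjoint s) with ha
      set b : E2 →L[ℝ] E2 := (1 / 2 : ℝ) • (s - ContinuousLinearMap.adjoint s) with hb
      have hs : ∀ v, s v = a v + b v := by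
        intro v
        change s v = (1 / 2 : ℝ) • (s v + ContinuousLinearMap.adjoint s v) +
          (1 / 2 : ℝ) • (s v - ContinuousLinearMap.adjoint s v)
        rw [← smul_add]
        have : s v + ContinuousLinearMap.adjoint s v + (s v - ContinuousLinearMap.adjoint s v) =
          (2 : ℝ) • s v := by
          rw [two_smul]; abel
        rw [this, smul_smul]; norm_num
      have ha1 : ∀ v w, ⟪a v, w⟫ = ⟪v, a w⟫ := by
        intro v w
        change ⟪(1 / 2 : ℝ) • (s v + ContinuousLinearMap.adjoint s v), w⟫ =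
          ⟪v, (1 / 2 : ℝ) • (s w + ContinuousLinearMap.adjoint s w)⟫
        rw [real_inner_smul_left, real_inner_smul_right, inner_add_left, inner_add_right,
          ContinuousLinearMap.adjoint_inner_left, ContinuousLinearMap.adjoint_inner_right]
        ring
      have hb1 : ∀ v w, ⟪b v, w⟫ = - ⟪v, b w⟫ := by
        intro v w
        change ⟪(1 / 2 : ℝ) • (s v - ContinuousLinearMap.adjoint s v), w⟫ =
          -⟪v, (1 / 2 : ℝ) • (s w - ContinuousLinearMap.adjoint s w)⟫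
        rw [real_inner_smul_left, real_inner_smul_right, inner_sub_left, inner_sub_right,
          ContinuousLinearMap.adjoint_inner_left, ContinuousLinearMap.adjoint_inner_right]
        ring
      have ha2 : a ∈ P.Sm x := by
        have h7 : fo a ∈ SymB E2 := fun u w => by
          rw [rep_fo, rep_fo, ha1, real_inner_comm]
        exact (mem_SF_of_rep P (rep_fo a)).1 (h6 h7).1
      have h9 : fo s ∈ SF P x := by
        have h10 : fo a + fo b ∈ SF P x := (SF P x).add_mem ⟨a, ha2, rep_fo a⟩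
          ⟨b, anti_mem P x hb1, rep_fo b⟩
        have h11 : fo a + fo b = fo s := by
          refine rep_form_unique (s := s) (fun u w => ?_) (rep_fo s)
          change ⟪a u, w⟫ + ⟪b u, w⟫ = ⟪s u, w⟫
          rw [← inner_add_left, ← hs]
        rwa [h11] at h10
      exact (mem_SF_of_rep P (rep_fo s)).1 h9

/-! ### all frames -/

theorem push_surj (A : E2 ≃L[ℝ] E2) (s : E2 →L[ℝ] E2) : ∃ s', Pic.push A s' = s :=
  ⟨_, push_pull A s⟩

theorem all_iff_push {x y : X} {A : E2 ≃L[ℝ] E2} (h : ∀ s, s ∈ P.Sm x ↔ Pic.push A s ∈ P.Sm y) :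
    (∀ s, s ∈ P.Sm x) ↔ ∀ s, s ∈ P.Sm y := by
  constructor
  · intro h1 s
    obtain ⟨s', rfl⟩ := push_surj A s
    exact (h s').1 (h1 s')
  · exact fun h1 s => (h s).2 (h1 _)

theorem all_leaf (hSB : P.SB) {x y : X} (h : L.em x = L.em y) :
    (∀ s, s ∈ P.Sm x) ↔ ∀ s, s ∈ P.Sm y := all_iff_push P (hSB.2.1 x y h)

theorem all_hol {ε₀ : ℝ} (h3 : P.T3 ε₀) (hI : P.SInv) {x : X} {ξ : B} (hξ : ξ ≠ L.ep x) :
    (∀ s, s ∈ P.Sm x) ↔ ∀ s, s ∈ P.Sm (L.hol ξ x) := by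
  have hq : P.Af.pt x 0 ≠ ξ := by rw [P.Af.pt_zero]; exact hξ.symm
  obtain ⟨A, hA⟩ := (h3.1 x ξ hξ).2 0 hq
  exact all_iff_push P (hI x ξ hξ 0 hq A hA)

theorem all_frames {ε₀ : ℝ} (h3 : P.T3 ε₀) (hI : P.SInv) (hSB : P.SB) (x y : X) :
    (∀ s, s ∈ P.Sm x) → ∀ s, s ∈ P.Sm y := by
  have key : ∀ z : X, L.em y ≠ L.ep z → (∀ s, s ∈ P.Sm z) → ∀ s, s ∈ P.Sm y := by
    intro z hz h
    have h1 := (all_hol P h3 hI hz).1 h
    exact (all_leaf P hSB (L.hol_em _ _ hz)).1 h1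
  intro h
  by_cases hy : L.em y ≠ L.ep x
  · exact key x hy h
  · push Not at hy
    -- another frame of the leaf of `x`
    set v : E2 := EuclideanSpace.single 0 1 with hv
    have hv1 : ‖v‖ = 1 := by rw [hv]; simp
    have hv3 : v ∈ closedBall (0 : E2) 3 := by rw [mem_closedBall_zero_iff, hv1]; norm_num
    have hv0 : v ≠ 0 := by rw [← norm_pos_iff, hv1]; norm_num
    obtain ⟨z, hz1, hz2, -⟩ := L.exists_frame (L.em x) (L.e x v) (L.e_ne x v hv3).symm 0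
    refine key z ?_ ((all_leaf P hSB hz1.symm).1 h)
    rw [hy, hz2, ← L.e_zero x]
    intro h4
    exact hv0 (L.e_inj x (mem_closedBall_self (by norm_num)) hv3 h4).symm

/-- **PIC-DICH** -/
theorem dich {ε₀ : ℝ} (hε : 0 < ε₀) (h2d : P.T2d ε₀) (h2a : P.T2a ε₀) (h2h : P.T2h ε₀)
    (h3 : P.T3 ε₀) (hI : P.SInv) (hSB : P.SB) : P.Dich := by
  by_cases h : ∃ x, ∀ s, s ∈ P.Sm x
  · obtain ⟨x, hx⟩ := h
    exact Or.inl fun y => all_frames P h3 hI hSB x y hx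
  · push Not at h
    refine Or.inr fun x => ?_
    rcases dich_frame P hε h2d h2a h2h h3 hI hSB x with h4 | h4
    · obtain ⟨s, hs⟩ := h x
      exact absurd (h4 s) hs
    · exact h4

end Vale.Agent.P207.N4.Y.H242
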